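import Vale.Agent.Lib.P034.Main

/-!
P034: Talagrand's conjecture. There is a universal constant `K` such that `q_f(F) ≤ K q(F)` for
every finite nonempty set `X` and every nonempty proper increasing family `F` of subsets of `X`.
-/

namespace Vale.Agent.Results.P034.Talagrand

open Vale.Agent.P034

theorem result : ∃ K : ℝ, 0 < K ∧ ∀ (X : Type) [Fintype X] [Nonempty X]
    (F : Finset (Finset X)), F.Nonempty → ∅ ∉ F → (∀ A ∈ F, ∀ B : Finset X, A ⊆ B → B ∈ F) →
      qf F ≤ K * q F := by
  classical
  exact ⟨2 ^ 31, by norm_num, fun _ _ _ F _ hemp _ => qf_le F hemp⟩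

end Vale.Agent.Results.P034.Talagrand
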